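import Vale.Agent.H42.Perceptron.SphereInvariant

/-!
# P157: when is the limit of the expected pressure of the Gaussian perceptron the annealed value?
(Ising cube and sphere)

Let `f` be bounded measurable, `m = E exp f(G)`, `c₁ = E[G exp f(G)]`, and let `E p_N(f)` be the
expected pressure with `M = ⌊α N⌋` Gaussian patterns, on the Ising cube `{-1,1}^N` or on the
sphere `S_N = {|x|² = N}` with its uniform probability measure.

0. The measure `sphereLaw N` used for the sphere (the law of `√N ξ/|ξ|`, `ξ` standard Gaussian)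
   is a probability measure carried by `S_N` and invariant under all orthogonal matrices.
1. If `c₁ = 0` and `2 α Var(exp f(G)) < m²`, then `E p_N(f) → α log m` on both spaces.
2. If `c₁ ≠ 0`, then for every `α > 0` there is `η > 0` with `E p_N(f) ≤ α log m - η`
   for all large `N`, on both spaces.
3. On the cube, if `α (E[f(G) exp f(G)] / m - log m) > log 2`, there is `η > 0` with
   `E p_N(f) ≤ α log m - η` for all large `N`.
-/

namespace Vale.Agent.Results.P157.A_AnnealedCubeSphere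

open MeasureTheory ProbabilityTheory Filter Topology Vale.Agent.H42.Perceptron

theorem result :
    ((∀ N : ℕ, IsProbabilityMeasure (sphereLaw N)) ∧
      (∀ N : ℕ, 0 < N → ∀ᵐ x ∂(sphereLaw N), ∑ i, x i ^ 2 = (N : ℝ)) ∧
      (∀ (N : ℕ) (O : Matrix (Fin N) (Fin N) ℝ), O * O.transpose = 1 →
        (sphereLaw N).map (fun x : Fin N → ℝ => O.mulVec x) = sphereLaw N)) ∧
    ∀ f : ℝ → ℝ, Measurable f → (∃ C : ℝ, ∀ t, |f t| ≤ C) → ∀ α : ℝ, 0 < α →
      ((∫ t, t * Real.exp (f t) ∂(gaussianReal 0 1) = 0 ∧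
          2 * α * (∫ u, Real.exp (f u) ^ 2 ∂(gaussianReal 0 1)
              - (∫ u, Real.exp (f u) ∂(gaussianReal 0 1)) ^ 2)
            < (∫ u, Real.exp (f u) ∂(gaussianReal 0 1)) ^ 2) →
        Tendsto (fun N : ℕ => meanCubePressure N ⌊α * N⌋₊ f) atTop
            (𝓝 (α * Real.log (∫ u, Real.exp (f u) ∂(gaussianReal 0 1)))) ∧
          Tendsto (fun N : ℕ => meanSpherePressure N ⌊α * N⌋₊ f) atTop
            (𝓝 (α * Real.log (∫ u, Real.exp (f u) ∂(gaussianReal 0 1))))) ∧
      (∫ t, t * Real.exp (f t) ∂(gaussianReal 0 1) ≠ 0 →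
        ∃ η : ℝ, 0 < η ∧ ∀ᶠ N : ℕ in atTop,
          meanCubePressure N ⌊α * N⌋₊ f
              ≤ α * Real.log (∫ u, Real.exp (f u) ∂(gaussianReal 0 1)) - η ∧
            meanSpherePressure N ⌊α * N⌋₊ f
              ≤ α * Real.log (∫ u, Real.exp (f u) ∂(gaussianReal 0 1)) - η) ∧
      (Real.log 2 < α * ((∫ t, f t * Real.exp (f t) ∂(gaussianReal 0 1))
            / (∫ u, Real.exp (f u) ∂(gaussianReal 0 1))
          - Real.log (∫ u, Real.exp (f u) ∂(gaussianReal 0 1))) →
        ∃ η : ℝ, 0 < η ∧ ∀ᶠ N : ℕ in atTop,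
          meanCubePressure N ⌊α * N⌋₊ f
            ≤ α * Real.log (∫ u, Real.exp (f u) ∂(gaussianReal 0 1)) - η) := by
  refine ⟨⟨fun N => inferInstance, fun N hN => ae_sphereLaw N hN,
    fun N O hO => sphereLaw_map_orthogonal N O hO⟩, ?_⟩
  intro f hf hb α hα
  obtain ⟨C, hC⟩ := hb
  have hab : ∀ t, -C ≤ f t ∧ f t ≤ C := fun t => abs_le.mp (hC t)
  refine ⟨fun h => ⟨?_, ?_⟩, fun h => ?_, fun h => ?_⟩
  · exact tendsto_meanCubePressure f hf C hC h.1 α hα h.2
  · exact tendsto_meanSpherePressure f hf C hC h.1 α hα h.2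
  · obtain ⟨η₁, hη₁, h₁⟩ := meanCubePressure_eventually_le_sub_of_bias f hf hab h α hα
    obtain ⟨η₂, hη₂, h₂⟩ := meanSpherePressure_eventually_le_sub_of_bias f hf hab h α hα
    refine ⟨min η₁ η₂, lt_min hη₁ hη₂, ?_⟩
    filter_upwards [h₁, h₂] with N hN₁ hN₂
    exact ⟨hN₁.trans (by linarith [min_le_left η₁ η₂]),
      hN₂.trans (by linarith [min_le_right η₁ η₂])⟩
  · exact meanCubePressure_eventually_le_sub f hf hab α hα h

end Vale.Agent.Results.P157.A_AnnealedCubeSphere
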