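import Vale.Agent.H42.Perceptron.SharpCube
import Vale.Agent.H42.Perceptron.SphereInvariant

/-!
# P157: the annealed phase of the Gaussian perceptron on the Ising cube and on the sphere

Let `f` be measurable with `|f| ≤ C`, `G` standard Gaussian, `U = exp f`, `m = E U(G)`,
`V = Var U(G)`, `c₁ = E[G U(G)]`.  `P_N(M)` is the expected pressure with `M` Gaussian patterns,
on the Ising cube `{-1,1}^N` or on the sphere `S_N = {|x|² = N}` with its uniform probability
measure, and `a_N = P_N(⌊α N⌋)`.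

0. `sphereLaw N` (the law of `√N ξ/|ξ|`, `ξ` standard Gaussian) is a probability measure carried
   by `S_N` and invariant under all orthogonal matrices.
A. `P_N(M+1) ≤ P_N(M) + (log m)/N`: the gap to the annealed value grows with `M`.
B. If `a_N → α log m` at density `α`, the same holds at every density `α' ≤ α`.
C. For every `ε > 0`, eventually
   `α log m - √2 C (V/m²) α^{3/2} - ε ≤ a_N ≤ α log m + ε`.
D. `a_N → α log m` if `c₁ = 0` and `2 α V < m²` (both spaces); on the cube also if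
   `α log (K(ρ)/m²) ≤ I(ρ)` for all `ρ ∈ [-1,1]`, `K(ρ) = E[U(X) U(Y)]` for a `ρ`-correlated
   Gaussian pair and `I` the rate function of the overlap.
E. If `c₁ ≠ 0`, then `a_N ≤ α log m - η` eventually for some `η > 0` (both spaces); on the cube
   the same holds if `α (E[f(G) U(G)]/m - log m) > log 2`.
-/

namespace Vale.Agent.Results.P157.A_AnnealedPhase

open MeasureTheory ProbabilityTheory Filter Topology Vale.Agent.H42.Perceptron

theorem result :
    ((∀ N : ℕ, IsProbabilityMeasure (sphereLaw N)) ∧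
      (∀ N : ℕ, 0 < N → ∀ᵐ x ∂(sphereLaw N), (∑ i, x i ^ 2) = (N : ℝ)) ∧
      (∀ (N : ℕ) (O : Matrix (Fin N) (Fin N) ℝ), O * O.transpose = 1 →
        (sphereLaw N).map (fun x : Fin N → ℝ => O.mulVec x) = sphereLaw N)) ∧
    ∀ f : ℝ → ℝ, Measurable f → ∀ C : ℝ, (∀ t, |f t| ≤ C) →
    ∀ m V c₁ : ℝ, m = (∫ u, Real.exp (f u) ∂(gaussianReal 0 1)) →
      V = (∫ u, Real.exp (f u) ^ 2 ∂(gaussianReal 0 1)) - m ^ 2 →
      c₁ = (∫ u, u * Real.exp (f u) ∂(gaussianReal 0 1)) →
      (∀ N M : ℕ, 0 < N →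
        meanCubePressure N (M + 1) f ≤ meanCubePressure N M f + Real.log m / N ∧
        meanSpherePressure N (M + 1) f ≤ meanSpherePressure N M f + Real.log m / N) ∧
      ∀ α : ℝ, 0 < α →
        (∀ α' : ℝ, 0 < α' → α' ≤ α →
          (Tendsto (fun N : ℕ => meanCubePressure N ⌊α * N⌋₊ f) atTop (𝓝 (α * Real.log m)) →
            Tendsto (fun N : ℕ => meanCubePressure N ⌊α' * N⌋₊ f) atTop
              (𝓝 (α' * Real.log m))) ∧
          (Tendsto (fun N : ℕ => meanSpherePressure N ⌊α * N⌋₊ f) atTop (𝓝 (α * Real.log m)) →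
            Tendsto (fun N : ℕ => meanSpherePressure N ⌊α' * N⌋₊ f) atTop
              (𝓝 (α' * Real.log m)))) ∧
        (∀ ε : ℝ, 0 < ε → ∀ᶠ N : ℕ in atTop,
          (α * Real.log m - Real.sqrt 2 * C * (V / m ^ 2) * (α * Real.sqrt α) - ε
              ≤ meanCubePressure N ⌊α * N⌋₊ f ∧
            meanCubePressure N ⌊α * N⌋₊ f ≤ α * Real.log m + ε) ∧
          (α * Real.log m - Real.sqrt 2 * C * (V / m ^ 2) * (α * Real.sqrt α) - ε
              ≤ meanSpherePressure N ⌊α * N⌋₊ f ∧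
            meanSpherePressure N ⌊α * N⌋₊ f ≤ α * Real.log m + ε)) ∧
        ((c₁ = 0 ∧ 2 * α * V < m ^ 2) →
          Tendsto (fun N : ℕ => meanCubePressure N ⌊α * N⌋₊ f) atTop (𝓝 (α * Real.log m)) ∧
          Tendsto (fun N : ℕ => meanSpherePressure N ⌊α * N⌋₊ f) atTop (𝓝 (α * Real.log m))) ∧
        ((∀ ρ : ℝ, -1 ≤ ρ → ρ ≤ 1 →
            α * Real.log ((∫ x, (∫ w, Real.exp (f x)
                * Real.exp (f (ρ * x + Real.sqrt (1 - ρ ^ 2) * w)) ∂(gaussianReal 0 1))
                ∂(gaussianReal 0 1)) / m ^ 2)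
              ≤ ((1 + ρ) * Real.log (1 + ρ) + (1 - ρ) * Real.log (1 - ρ)) / 2) →
          Tendsto (fun N : ℕ => meanCubePressure N ⌊α * N⌋₊ f) atTop (𝓝 (α * Real.log m))) ∧
        (c₁ ≠ 0 → ∃ η : ℝ, 0 < η ∧ ∀ᶠ N : ℕ in atTop,
          meanCubePressure N ⌊α * N⌋₊ f ≤ α * Real.log m - η ∧
          meanSpherePressure N ⌊α * N⌋₊ f ≤ α * Real.log m - η) ∧
        (Real.log 2 < α * ((∫ u, f u * Real.exp (f u) ∂(gaussianReal 0 1)) / m - Real.log m) →
          ∃ η : ℝ, 0 < η ∧ ∀ᶠ N : ℕ in atTop,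
            meanCubePressure N ⌊α * N⌋₊ f ≤ α * Real.log m - η) := by
  refine ⟨⟨fun N => inferInstance, fun N hN => ae_sphereLaw N hN,
    fun N O hO => sphereLaw_map_orthogonal N O hO⟩, ?_⟩
  intro f hf C hC m V c₁ hm hV hc₁
  subst hV hc₁ hm
  have hab : ∀ t, -C ≤ f t ∧ f t ≤ C := fun t => abs_le.mp (hC t)
  refine ⟨fun N M hN => ⟨meanCubePressure_succ_le f N M hN hf hab,
    meanSpherePressure_succ_le f N M hN hf hab⟩, ?_⟩
  intro α hα
  refine ⟨fun α' hα' hle => ⟨fun h0 => ?_, fun h0 => ?_⟩, fun ε hε => ?_, fun h => ⟨?_, ?_⟩,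
    fun H => ?_, fun h => ?_, fun h => ?_⟩
  · exact tendsto_meanCubePressure_of_le f hf hab α α' hα' hle h0
  · exact tendsto_meanSpherePressure_of_le f hf hab α α' hα' hle h0
  · filter_upwards [meanCubePressure_eventually_ge f hf C hC α hα ε hε,
      meanCubePressure_eventually_le f hf hab α hα ε hε,
      meanSpherePressure_eventually_ge f hf C hC α hα ε hε,
      meanSpherePressure_eventually_le f hf hab α hα ε hε] with N h1 h2 h3 h4
    exact ⟨⟨h1, h2⟩, h3, h4⟩
  · exact tendsto_meanCubePressure f hf C hC h.1 α hα h.2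
  · exact tendsto_meanSpherePressure f hf C hC h.1 α hα h.2
  · refine tendsto_meanCubePressure_sharp f hf C hC α hα fun ρ h1 h2 => ?_
    have h := H ρ h1 h2
    simp only [integral_const_mul] at h
    exact h
  · obtain ⟨η₁, hη₁, h₁⟩ := meanCubePressure_eventually_le_sub_of_bias f hf hab h α hα
    obtain ⟨η₂, hη₂, h₂⟩ := meanSpherePressure_eventually_le_sub_of_bias f hf hab h α hα
    refine ⟨min η₁ η₂, lt_min hη₁ hη₂, ?_⟩
    filter_upwards [h₁, h₂] with N hN₁ hN₂
    exact ⟨hN₁.trans (by linarith [min_le_left η₁ η₂]),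
      hN₂.trans (by linarith [min_le_right η₁ η₂])⟩
  · exact meanCubePressure_eventually_le_sub f hf hab α hα h

end Vale.Agent.Results.P157.A_AnnealedPhase
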