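import Vale.Agent.H42.Perceptron.SharpCube
import Vale.Agent.H42.Perceptron.SphereInvariant

/-!
# P157: the annealed phase of the Gaussian perceptron, with the criterion `c₁ = 0`

This is the statement of `A_AnnealedPhase` (parts 0, A, B, C, D, E there) together with one
corollary of its parts D and E:

K. For measurable `f` with `|f| ≤ C`, `m = E exp f(G)`, `c₁ = E[G exp f(G)]`: on the Ising cube,
   and likewise on the sphere, there is a density `α > 0` at which the expected pressure with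
   `⌊α N⌋` patterns converges to the annealed value `α log m` if and only if `c₁ = 0`.
-/

namespace Vale.Agent.Results.P157.A_AnnealedPhaseCriterion

open MeasureTheory ProbabilityTheory Filter Topology Vale.Agent.H42.Perceptron

theorem criterion (f : ℝ → ℝ) (hf : Measurable f) (C : ℝ) (hC : ∀ t, |f t| ≤ C) :
    ((∃ α : ℝ, 0 < α ∧ Tendsto (fun N : ℕ => meanCubePressure N ⌊α * N⌋₊ f) atTop
        (𝓝 (α * Real.log (∫ u, Real.exp (f u) ∂(gaussianReal 0 1))))) ↔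
      (∫ u, u * Real.exp (f u) ∂(gaussianReal 0 1)) = 0) ∧
    ((∃ α : ℝ, 0 < α ∧ Tendsto (fun N : ℕ => meanSpherePressure N ⌊α * N⌋₊ f) atTop
        (𝓝 (α * Real.log (∫ u, Real.exp (f u) ∂(gaussianReal 0 1))))) ↔
      (∫ u, u * Real.exp (f u) ∂(gaussianReal 0 1)) = 0) := by
  have hab : ∀ t, -C ≤ f t ∧ f t ≤ C := fun t => abs_le.mp (hC t)
  have hm : 0 < ∫ u, Real.exp (f u) ∂(gaussianReal 0 1) := by
    simpa using integral_exp_mul_comp_pos f hf hab 1 zero_le_one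
  obtain ⟨α₀, hα₀, hsm⟩ : ∃ α₀ : ℝ, 0 < α₀ ∧
      2 * α₀ * (∫ u, Real.exp (f u) ^ 2 ∂(gaussianReal 0 1)
        - (∫ u, Real.exp (f u) ∂(gaussianReal 0 1)) ^ 2)
      < (∫ u, Real.exp (f u) ∂(gaussianReal 0 1)) ^ 2 := by
    generalize (∫ u, Real.exp (f u) ∂(gaussianReal 0 1)) = m at hm
    generalize (∫ u, Real.exp (f u) ^ 2 ∂(gaussianReal 0 1)) - m ^ 2 = V
    have hm2 : 0 < m ^ 2 := pow_pos hm 2
    have hd : 0 < |V| + 1 := by positivity
    refine ⟨m ^ 2 / (2 * (|V| + 1)), div_pos hm2 (by positivity), ?_⟩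
    have h1 : 2 * (m ^ 2 / (2 * (|V| + 1))) * V = m ^ 2 * (V / (|V| + 1)) := by
      field_simp
    rw [h1]
    have h2 : V / (|V| + 1) < 1 := by
      rw [div_lt_one hd]
      linarith [le_abs_self V]
    nlinarith
  refine ⟨⟨?_, fun h0 => ⟨α₀, hα₀, tendsto_meanCubePressure f hf C hC h0 α₀ hα₀ hsm⟩⟩,
    ⟨?_, fun h0 => ⟨α₀, hα₀, tendsto_meanSpherePressure f hf C hC h0 α₀ hα₀ hsm⟩⟩⟩
  · rintro ⟨α, hα, hlim⟩
    by_contra hc
    obtain ⟨η, hη, hev⟩ := meanCubePressure_eventually_le_sub_of_bias f hf hab hc α hα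
    have hgt : ∀ᶠ N : ℕ in atTop,
        α * Real.log (∫ u, Real.exp (f u) ∂(gaussianReal 0 1)) - η
          < meanCubePressure N ⌊α * N⌋₊ f :=
      hlim.eventually (lt_mem_nhds (by linarith))
    obtain ⟨N, h1, h2⟩ := (hev.and hgt).exists
    linarith
  · rintro ⟨α, hα, hlim⟩
    by_contra hc
    obtain ⟨η, hη, hev⟩ := meanSpherePressure_eventually_le_sub_of_bias f hf hab hc α hα
    have hgt : ∀ᶠ N : ℕ in atTop,
        α * Real.log (∫ u, Real.exp (f u) ∂(gaussianReal 0 1)) - η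
          < meanSpherePressure N ⌊α * N⌋₊ f :=
      hlim.eventually (lt_mem_nhds (by linarith))
    obtain ⟨N, h1, h2⟩ := (hev.and hgt).exists
    linarith

theorem result :
    (((∀ N : ℕ, IsProbabilityMeasure (sphereLaw N)) ∧
      (∀ N : ℕ, 0 < N → ∀ᵐ x ∂(sphereLaw N), (∑ i, x i ^ 2) = (N : ℝ)) ∧
      (∀ (N : ℕ) (O : Matrix (Fin N) (Fin N) ℝ), O * O.transpose = 1 →
        (sphereLaw N).map (fun x : Fin N → ℝ => O.mulVec x) = sphereLaw N)) ∧
    ∀ f : ℝ → ℝ, Measurable f → ∀ C : ℝ, (∀ t, |f t| ≤ C) →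
    ∀ m V c₁ : ℝ, m = (∫ u, Real.exp (f u) ∂(gaussianReal 0 1)) →
      V = (∫ u, Real.exp (f u) ^ 2 ∂(gaussianReal 0 1)) - m ^ 2 →
      c₁ = (∫ u, u * Real.exp (f u) ∂(gaussianReal 0 1)) →
      (∀ N M : ℕ, 0 < N →
        meanCubePressure N (M + 1) f ≤ meanCubePressure N M f + Real.log m / N ∧
        meanSpherePressure N (M + 1) f ≤ meanSpherePressure N M f + Real.log m / N) ∧
      ∀ α : ℝ, 0 < α →
        (∀ α' : ℝ, 0 < α' → α' ≤ α →
          (Tendsto (fun N : ℕ => meanCubePressure N ⌊α * N⌋₊ f) atTop (𝓝 (α * Real.log m)) →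
            Tendsto (fun N : ℕ => meanCubePressure N ⌊α' * N⌋₊ f) atTop
              (𝓝 (α' * Real.log m))) ∧
          (Tendsto (fun N : ℕ => meanSpherePressure N ⌊α * N⌋₊ f) atTop (𝓝 (α * Real.log m)) →
            Tendsto (fun N : ℕ => meanSpherePressure N ⌊α' * N⌋₊ f) atTop
              (𝓝 (α' * Real.log m)))) ∧
        (∀ ε : ℝ, 0 < ε → ∀ᶠ N : ℕ in atTop,
          (α * Real.log m - Real.sqrt 2 * C * (V / m ^ 2) * (α * Real.sqrt α) - ε
              ≤ meanCubePressure N ⌊α * N⌋₊ f ∧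
            meanCubePressure N ⌊α * N⌋₊ f ≤ α * Real.log m + ε) ∧
          (α * Real.log m - Real.sqrt 2 * C * (V / m ^ 2) * (α * Real.sqrt α) - ε
              ≤ meanSpherePressure N ⌊α * N⌋₊ f ∧
            meanSpherePressure N ⌊α * N⌋₊ f ≤ α * Real.log m + ε)) ∧
        ((c₁ = 0 ∧ 2 * α * V < m ^ 2) →
          Tendsto (fun N : ℕ => meanCubePressure N ⌊α * N⌋₊ f) atTop (𝓝 (α * Real.log m)) ∧
          Tendsto (fun N : ℕ => meanSpherePressure N ⌊α * N⌋₊ f) atTop (𝓝 (α * Real.log m))) ∧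
        ((∀ ρ : ℝ, -1 ≤ ρ → ρ ≤ 1 →
            α * Real.log ((∫ x, (∫ w, Real.exp (f x)
                * Real.exp (f (ρ * x + Real.sqrt (1 - ρ ^ 2) * w)) ∂(gaussianReal 0 1))
                ∂(gaussianReal 0 1)) / m ^ 2)
              ≤ ((1 + ρ) * Real.log (1 + ρ) + (1 - ρ) * Real.log (1 - ρ)) / 2) →
          Tendsto (fun N : ℕ => meanCubePressure N ⌊α * N⌋₊ f) atTop (𝓝 (α * Real.log m))) ∧
        (c₁ ≠ 0 → ∃ η : ℝ, 0 < η ∧ ∀ᶠ N : ℕ in atTop,
          meanCubePressure N ⌊α * N⌋₊ f ≤ α * Real.log m - η ∧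
          meanSpherePressure N ⌊α * N⌋₊ f ≤ α * Real.log m - η) ∧
        (Real.log 2 < α * ((∫ u, f u * Real.exp (f u) ∂(gaussianReal 0 1)) / m - Real.log m) →
          ∃ η : ℝ, 0 < η ∧ ∀ᶠ N : ℕ in atTop,
            meanCubePressure N ⌊α * N⌋₊ f ≤ α * Real.log m - η)) ∧
    ∀ f : ℝ → ℝ, Measurable f → ∀ C : ℝ, (∀ t, |f t| ≤ C) →
      ((∃ α : ℝ, 0 < α ∧ Tendsto (fun N : ℕ => meanCubePressure N ⌊α * N⌋₊ f) atTop
          (𝓝 (α * Real.log (∫ u, Real.exp (f u) ∂(gaussianReal 0 1))))) ↔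
        (∫ u, u * Real.exp (f u) ∂(gaussianReal 0 1)) = 0) ∧
      ((∃ α : ℝ, 0 < α ∧ Tendsto (fun N : ℕ => meanSpherePressure N ⌊α * N⌋₊ f) atTop
          (𝓝 (α * Real.log (∫ u, Real.exp (f u) ∂(gaussianReal 0 1))))) ↔
        (∫ u, u * Real.exp (f u) ∂(gaussianReal 0 1)) = 0) := by
  refine ⟨?_, fun f hf C hC => criterion f hf C hC⟩
  refine ⟨⟨fun N => inferInstance, fun N hN => ae_sphereLaw N hN,
    fun N O hO => sphereLaw_map_orthogonal N O hO⟩, ?_⟩
  intro f hf C hC m V c₁ hm hV hc₁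
  subst hV hc₁ hm
  have hab : ∀ t, -C ≤ f t ∧ f t ≤ C := fun t => abs_le.mp (hC t)
  refine ⟨fun N M hN => ⟨meanCubePressure_succ_le f N M hN hf hab,
    meanSpherePressure_succ_le f N M hN hf hab⟩, ?_⟩
  intro α hα
  refine ⟨fun α' hα' hle => ⟨fun h0 => ?_, fun h0 => ?_⟩, fun ε hε => ?_, fun h => ⟨?_, ?_⟩,
    fun H => ?_, fun h => ?_, fun h => ?_⟩
  · exact tendsto_meanCubePressure_of_le f hf hab α α' hα' hle h0
  · exact tendsto_meanSpherePressure_of_le f hf hab α α' hα' hle h0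
  · filter_upwards [meanCubePressure_eventually_ge f hf C hC α hα ε hε,
      meanCubePressure_eventually_le f hf hab α hα ε hε,
      meanSpherePressure_eventually_ge f hf C hC α hα ε hε,
      meanSpherePressure_eventually_le f hf hab α hα ε hε] with N h1 h2 h3 h4
    exact ⟨⟨h1, h2⟩, h3, h4⟩
  · exact tendsto_meanCubePressure f hf C hC h.1 α hα h.2
  · exact tendsto_meanSpherePressure f hf C hC h.1 α hα h.2
  · refine tendsto_meanCubePressure_sharp f hf C hC α hα fun ρ h1 h2 => ?_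
    have h := H ρ h1 h2
    simp only [integral_const_mul] at h
    exact h
  · obtain ⟨η₁, hη₁, h₁⟩ := meanCubePressure_eventually_le_sub_of_bias f hf hab h α hα
    obtain ⟨η₂, hη₂, h₂⟩ := meanSpherePressure_eventually_le_sub_of_bias f hf hab h α hα
    refine ⟨min η₁ η₂, lt_min hη₁ hη₂, ?_⟩
    filter_upwards [h₁, h₂] with N hN₁ hN₂
    exact ⟨hN₁.trans (by linarith [min_le_left η₁ η₂]),
      hN₂.trans (by linarith [min_le_right η₁ η₂])⟩
  · exact meanCubePressure_eventually_le_sub f hf hab α hα h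

end Vale.Agent.Results.P157.A_AnnealedPhaseCriterion
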