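import Vale.Agent.H42.Perceptron.Biased

/-!
# P157: when is the limit of the expected pressure of the Ising-cube Gaussian perceptron the
annealed value?

Let `f` be bounded measurable, `m = E exp f(G)`, `c₁ = E[G exp f(G)]`, and let `E p_N(f)` be the
expected pressure with `M = ⌊α N⌋` Gaussian patterns on the Ising cube.

1. If `c₁ = 0` and `2 α Var(exp f(G)) < m²`, then `E p_N(f) → α log m`.
2. If `c₁ ≠ 0`, then for every `α > 0` there is `η > 0` with `E p_N(f) ≤ α log m - η`
   for all large `N`.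
3. If `α (E[f(G) exp f(G)] / m - log m) > log 2`, there is `η > 0` with
   `E p_N(f) ≤ α log m - η` for all large `N`.
-/

namespace Vale.Agent.Results.P157.A_AnnealedRegime

open MeasureTheory ProbabilityTheory Filter Topology Vale.Agent.H42.Perceptron

theorem result :
    ∀ f : ℝ → ℝ, Measurable f → (∃ C : ℝ, ∀ t, |f t| ≤ C) → ∀ α : ℝ, 0 < α →
      ((∫ t, t * Real.exp (f t) ∂(gaussianReal 0 1) = 0 ∧
          2 * α * (∫ u, Real.exp (f u) ^ 2 ∂(gaussianReal 0 1)
              - (∫ u, Real.exp (f u) ∂(gaussianReal 0 1)) ^ 2)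
            < (∫ u, Real.exp (f u) ∂(gaussianReal 0 1)) ^ 2) →
        Tendsto (fun N : ℕ => meanCubePressure N ⌊α * N⌋₊ f) atTop
          (𝓝 (α * Real.log (∫ u, Real.exp (f u) ∂(gaussianReal 0 1))))) ∧
      (∫ t, t * Real.exp (f t) ∂(gaussianReal 0 1) ≠ 0 →
        ∃ η : ℝ, 0 < η ∧ ∀ᶠ N : ℕ in atTop,
          meanCubePressure N ⌊α * N⌋₊ f
            ≤ α * Real.log (∫ u, Real.exp (f u) ∂(gaussianReal 0 1)) - η) ∧
      (Real.log 2 < α * ((∫ t, f t * Real.exp (f t) ∂(gaussianReal 0 1))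
            / (∫ u, Real.exp (f u) ∂(gaussianReal 0 1))
          - Real.log (∫ u, Real.exp (f u) ∂(gaussianReal 0 1))) →
        ∃ η : ℝ, 0 < η ∧ ∀ᶠ N : ℕ in atTop,
          meanCubePressure N ⌊α * N⌋₊ f
            ≤ α * Real.log (∫ u, Real.exp (f u) ∂(gaussianReal 0 1)) - η) := by
  intro f hf hb α hα
  obtain ⟨C, hC⟩ := hb
  have hab : ∀ t, -C ≤ f t ∧ f t ≤ C := fun t => abs_le.mp (hC t)
  refine ⟨fun h => ?_, fun h => ?_, fun h => ?_⟩
  · exact tendsto_meanCubePressure f hf C hC h.1 α hα h.2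
  · exact meanCubePressure_eventually_le_sub_of_bias f hf hab h α hα
  · exact meanCubePressure_eventually_le_sub f hf hab α hα h

end Vale.Agent.Results.P157.A_AnnealedRegime
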