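import Vale.Agent.H42.Perceptron.LargeDensity

/-!
# P157: fractional-moment upper bounds for the Gaussian perceptron on the Ising cube

For every measurable `f` with `a ≤ f ≤ b`, every `N ≥ 1` and every number `M` of patterns:

* for every `0 < lam ≤ 1`,
  `E p_N(f) ≤ ((1 - lam) / lam) log 2 + (M / N) (1 / lam) log E exp (lam f(G))`;
* `(M / N) E f(G) ≤ E p_N(f) ≤ (M / N) E f(G) + (b - a) √((M / N) log 2 / 2)`.
-/

namespace Vale.Agent.Results.P157.B_FractionalMoment

open MeasureTheory ProbabilityTheory Vale.Agent.H42.Perceptron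

theorem result :
    ∀ f : ℝ → ℝ, Measurable f → ∀ a b : ℝ, (∀ t, a ≤ f t ∧ f t ≤ b) →
    ∀ N M : ℕ, 0 < N →
      (∀ lam : ℝ, 0 < lam → lam ≤ 1 →
        meanCubePressure N M f ≤ (1 - lam) / lam * Real.log 2
          + (M / N) * (Real.log (∫ t, Real.exp (lam * f t) ∂(gaussianReal 0 1)) / lam))
      ∧ (M / N) * (∫ t, f t ∂(gaussianReal 0 1)) ≤ meanCubePressure N M f
      ∧ meanCubePressure N M f ≤ (M / N) * (∫ t, f t ∂(gaussianReal 0 1))
          + (b - a) * Real.sqrt ((M / N) * Real.log 2 / 2) := by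
  intro f hf a b hab N M hN
  exact ⟨fun lam h0 h1 => meanCubePressure_le N M f hN hf hab lam h0 h1,
    le_meanCubePressure N M f hN hf hab, meanCubePressure_le_sqrt N M f hN hf hab⟩

end Vale.Agent.Results.P157.B_FractionalMoment
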